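import Vale.Agent.P088.H72.B.Defs
import Vale.Agent.P088.H884.Iso

/-!
# P088, stage 2, row ALG: the pointwise algebra
-/

open MeasureTheory Set
open scoped ContDiff Matrix

noncomputable section

namespace Vale.Agent.P088.H364

open Vale.Agent.P088.LR Vale.Agent.P088.LR.B

/-- Row ALG. -/
theorem alg : RowALG := by
  intro n hn g J hg hJ h
  obtain ⟨m, rfl⟩ : ∃ m, n = m + 3 := ⟨n - 3, by omega⟩
  exact H884.iso_mat J g hJ hg.det_pos h

end Vale.Agent.P088.H364
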