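import Vale.Agent.P088.H72.B.Defs
import Vale.Agent.P088.H639.Fin
import Vale.Agent.P088.H833.TopS

/-!
# P088, stage 2, row CHS: stage 1 for density valued tensors `s`
-/

open MeasureTheory Set
open scoped ContDiff Matrix

noncomputable section

namespace Vale.Agent.P088.H364

open Vale.Agent.P088.LR Vale.Agent.P088.LR.B Vale.Agent.P088.H833

/-- The chain of the rows for a tensor `s` (no positivity). -/
theorem chainS (hN1 : RowNORM1) (hA3 : RowA3) (hG : Gauge0) (hD : RowDIF)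
    (hP : RowPUSH) (hC : RowCORE) (n : ℕ) :
    ∃ (k : ℕ) (ε : ℝ), 0 < ε ∧ ∀ Ω : Set (V n), IsOpen Ω → interior (closure Ω) = Ω →
      Ω ⊆ core n → ∀ s : MF n, SmM s → (∀ x, (s x).IsSymm) → (∀ x ∉ Ω, s x = 1) →
      (∀ i j, Cl k ε (fun x => s x i j - (1 : Matrix (Fin n) (Fin n) ℝ) i j)) →
      Star Ω s → ∃ w K, Dif Ω w K ∧ ∀ x, psh s w K x = 1 := by
  obtain ⟨m, εc, hεc, hcore⟩ := hC n
  obtain ⟨C3, hC3, hA⟩ := hA3 n m
  obtain ⟨CD, εD, hCD, hεD, hdif⟩ := hD n (m + n + 1)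
  obtain ⟨δ1, hδ1, hnorm1⟩ := hN1 n (m + n + 1) (εc / (C3 * CD)) (by positivity)
  obtain ⟨CG, εG, hCG, hεG, hgauge⟩ := hG n (m + n + 1)
  obtain ⟨C3', hC3', hA'⟩ := hA3 n (m + n + 1)
  obtain ⟨δ, hδ0, hδG, hδ1', hδD⟩ : ∃ δ : ℝ, 0 < δ ∧ δ ≤ εG ∧ CG * δ ≤ δ1 ∧ CG * δ ≤ εD := by
    refine ⟨min εG (min (δ1 / CG) (εD / CG)), by positivity, min_le_left _ _, ?_, ?_⟩
    · calc CG * min εG (min (δ1 / CG) (εD / CG)) ≤ CG * (δ1 / CG) :=
          mul_le_mul_of_nonneg_left ((min_le_right _ _).trans (min_le_left _ _)) hCG.le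
        _ = δ1 := by field_simp
    · calc CG * min εG (min (δ1 / CG) (εD / CG)) ≤ CG * (εD / CG) :=
          mul_le_mul_of_nonneg_left ((min_le_right _ _).trans (min_le_right _ _)) hCG.le
        _ = εD := by field_simp
  refine ⟨m + n + 1 + n + 1, min (δ / C3') δ1, by positivity, ?_⟩
  intro Ω hΩ hreg hΩc s hsm hsy hs1 hb hS
  have hnm : ∀ i j, nm (m + n + 1) (cf 0 (ent s i j)) ≤ δ := by
    intro i j
    have h := (hA' (ent s i j) (smooth_ent hsm i j) (tsupport_ent hΩc hs1 i j) 0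
      (by simp)).2.2 (δ / C3') (cl_ent hsm fun l hl x => (hb i j l hl x).trans (min_le_left _ _))
    calc _ ≤ C3' * (δ / C3') := h
      _ = δ := by field_simp
  obtain ⟨w, hw, hw0, hwcl, hwdv⟩ :=
    hgauge Ω hΩ hreg hΩc s hsm hsy hs1 hS δ hδG hδ0.le hnm
  have hwD : Cl (m + n + 1 + 1) εD w := fun l hl x => (hwcl l hl x).trans hδD
  have hw1 : Cl (m + n + 1 + 1) δ1 w := fun l hl x => (hwcl l hl x).trans hδ1'
  obtain ⟨K, hK, hcomp⟩ := hdif Ω w hw hw0 hwD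
  obtain ⟨p1, p2, p3, -, p5⟩ :=
    hP Ω hΩ (bounded_core.subset hΩc) hreg s hsm hsy hs1 w K hK
  have hcl1 : ∀ i j, Cl (m + n + 1) δ1
      (fun x => s x i j - (1 : Matrix (Fin n) (Fin n) ℝ) i j) := fun i j l hl x =>
    (hb i j l (by omega) x).trans (min_le_right _ _)
  have hfin := hnorm1 Ω s w K CD hsm hK hcomp hcl1 hw1
  have hnm2 : ∀ i j, nm m (cf 0 (ent (psh s w K) i j)) ≤ εc := by
    intro i j
    have h := (hA (ent (psh s w K) i j) (smooth_ent p1 i j) (tsupport_ent hΩc p3 i j) 0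
      (by simp)).2.2 (CD * (εc / (C3 * CD))) (cl_ent p1 (hfin i j))
    calc _ ≤ C3 * (CD * (εc / (C3 * CD))) := h
      _ = εc := by field_simp
  have hst : Star Ω (psh s w K) :=
    star_push hΩ (bounded_core.subset hΩc) hreg hsm hsy hK hS
  exact ⟨w, K, hK, hcore Ω hΩ hΩc (psh s w K) p1 p2 p3 (p5 hwdv) hst hnm2⟩

/-- Row CHS. -/
theorem chs : RowCHS := fun n _ =>
  chainS H72.norm1 H776.rowA3
    (H27.gauge H501.rowA1 H501.rowA2 H776.rowA3 H102.neu) H634.rowDIF H158.rowPUSH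
    H393.core n

end Vale.Agent.P088.H364
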